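import Vale.Agent.Lib.P154Q.Np0.Data

/-!
Kernel checks of one certificate.
-/

namespace Vale.Agent.Lib.P154Q.Np0

open Vale.Agent.Lib.P154M Vale.Agent.Lib.P154Q
open Vale.Agent.Lib.Common.Kron Vale.Agent.Lib.Common.Kron.PE

set_option maxRecDepth 100000 in
theorem hB2_3 : checkT D.eChB2 (c 1) [14, 13, 12, 24] .leaf ((((((((NetD.rB2 mC).lowH 0).lowH 0).upH 1).upH 2).lowH 3).upH 1).lowH 2) = true := by
  decide +kernel

end Vale.Agent.Lib.P154Q.Np0
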