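import Vale.Agent.Lib.P154Q.Child.Data

/-!
The data of one certificate.
-/

namespace Vale.Agent.Lib.P154Q.Np0

open Vale.Agent.Lib.P154M Vale.Agent.Lib.P154Q
open Vale.Agent.Lib.Common.Kron Vale.Agent.Lib.Common.Kron.PE

/-- Coefficients. -/
def G0L : L2 := [(377356, 4, 1), (75302661, 1, 3), (587207, 5, 0), (-119175961, 2, 2), (19708065, 3, 1), (276240302, 0, 3), (-1462429, 4, 0), (31727394, 1, 2), (-22363769, 2, 1), (3125362, 3, 0), (-25087245, 0, 2), (-3114041, 1, 1), (13247695, 2, 0), (219000000, 1, 0)]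

/-- Coefficients. -/
def G1L : L2 := [(-12982095, 4, 1), (634606491, 1, 3), (-545003, 5, 0), (-18656012, 2, 2), (63315463, 3, 1), (-1590542846, 0, 3), (-1401757, 4, 0), (-27918933, 1, 2), (-45792544, 2, 1), (4041171, 3, 0), (7541948, 0, 2), (9200407, 1, 1), (11404867, 2, 0), (9900000, 0, 1), (204084000, 1, 0)]

/-- The certificate. -/
def D : NetD where
  ML := [⟨4, 1, 377356, -12982095⟩,
    ⟨1, 3, 75302661, 634606491⟩,
    ⟨5, 0, 587207, -545003⟩,
    ⟨2, 2, -119175961, -18656012⟩,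
    ⟨3, 1, 19708065, 63315463⟩,
    ⟨0, 3, 276240302, -1590542846⟩,
    ⟨4, 0, -1462429, -1401757⟩,
    ⟨1, 2, 31727394, -27918933⟩,
    ⟨2, 1, -22363769, -45792544⟩,
    ⟨3, 0, 3125362, 4041171⟩,
    ⟨0, 2, -25087245, 7541948⟩,
    ⟨1, 1, -3114041, 9200407⟩,
    ⟨2, 0, 13247695, 11404867⟩,
    ⟨0, 1, 0, 9900000⟩,
    ⟨1, 0, 219000000, 204084000⟩]
  G0 := G0L
  G1 := G1L
  UB := Child.UBL
  UD := Child.UDL
  LA := Child.LAL
  PB := [22806528000, -6743654400, -2829926400, 2511308800, -918142400, 322694400]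
  PD := [21076377600, -38330695680, 22820290560, -7816642560, 1861539840, -296939520]
  ZZ := [31457280000, -31035752448, 8965324800]
  KK := [0, 0, 648757248, 5611253760, -4032409280, 479375200, -68832677, -16006884]
  gd := Child.gdC
  DW := 31457280000
  T1 := 3844778666666666
  wn := 11
  wd := 200
  bn0 := 36250
  dn0 := 33500
  bn1 := 37405
  dn1 := 31531
  den := 50000
  Na := 11
  Nc := Child.NcC

/-- The interval of the parameter. -/
def mC : Iv := ⟨8, 9, 18⟩

end Vale.Agent.Lib.P154Q.Np0
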